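import Vale.Agent.P032.Words6.H122.ClassD

/-!
# Graphs on six colours without cut: the classification

A symmetric irreflexive relation on six colours in which every colour has a partner, no colour is joined
to all but one of the others, and which does not contain all pairs between two disjoint sets with at
least five elements together, is exactly one of the thirty-five graphs of `LC` after a relabelling.
-/

namespace Vale.Agent.P032.Words6.H122

open Vale.Agent.P032.Words.Bits Vale.Agent.P032.Words6.H704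

theorem unG_testBit {n : ℕ} : ∀ {l : List (List ℕ × List ℕ)}, (unG l).testBit n = true →
    ∃ p ∈ l, ∃ c ∈ p.2, (cyl 2 (eA p.1 c) 15).testBit n = true
  | [], h => by
    have h' : (0 : ℕ).testBit n = true := h
    rw [Nat.zero_testBit] at h'
    exact absurd h' (by simp)
  | p :: l, h => by
    have h' : (un (p.2.map (eA p.1)) ||| unG l).testBit n = true := h
    rw [Nat.testBit_or, Bool.or_eq_true] at h'
    rcases h' with h1 | h1
    · obtain ⟨A, hA, h2⟩ := un_testBit h1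
      rw [List.mem_map] at hA
      obtain ⟨c, hc, rfl⟩ := hA
      exact ⟨p, List.mem_cons_self, c, hc, h2⟩
    · obtain ⟨p', hp', h2⟩ := unG_testBit h1
      exact ⟨p', List.mem_cons_of_mem _ hp', h2⟩

theorem memb_of_mem {x : ℕ} : ∀ {l : List ℕ}, x ∈ l → memb l x = true
  | [], h => absurd h (by simp)
  | a :: l, h => by
    show (Nat.beq a x || memb l x) = true
    rw [Bool.or_eq_true]
    rcases List.mem_cons.1 h with h1 | h1
    · left; rw [h1]; simp
    · exact Or.inr (memb_of_mem h1)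

theorem cases {h : ℕ → ℕ} (hh : ∀ j < 15, h j < 2) :
    (∃ c ∈ vu, ∀ j < 15, badA c.1 c.2 j (h j) = true) ∨
    (∃ c ∈ XY, ∀ j < 15, cutA c.1 c.2 j (h j) = true) ∨
    (∃ a ∈ [0, 1, 2, 3, 4, 5], ∀ j < 15, isoA a j (h j) = true) ∨
    (∃ p ∈ LC, ∃ c ∈ p.2, ∀ j < 15, eA p.1 c j (h j) = true) := by
  have hF : (cyl 2 (fun _ _ => true) 15).testBit (code 2 h 15) = true :=
    (cyl_testBit hh).2 fun _ _ => rfl
  have heq := chkCls_eq
  unfold chkCls at heq
  rw [← Nat.eq_of_beq_eq_true heq, Nat.testBit_or, Nat.testBit_or, Nat.testBit_or,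
    Bool.or_eq_true, Bool.or_eq_true, Bool.or_eq_true] at hF
  rcases hF with ((h1 | h1) | h1) | h1
  · obtain ⟨A, hA, h2⟩ := un_testBit h1
    rw [List.mem_map] at hA
    obtain ⟨c, hc, rfl⟩ := hA
    exact Or.inl ⟨c, hc, (cyl_testBit hh).1 h2⟩
  · obtain ⟨A, hA, h2⟩ := un_testBit h1
    rw [List.mem_map] at hA
    obtain ⟨c, hc, rfl⟩ := hA
    exact Or.inr (Or.inl ⟨c, hc, (cyl_testBit hh).1 h2⟩)
  · obtain ⟨A, hA, h2⟩ := un_testBit h1
    rw [List.mem_map] at hA
    obtain ⟨c, hc, rfl⟩ := hA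
    exact Or.inr (Or.inr (Or.inl ⟨c, hc, (cyl_testBit hh).1 h2⟩))
  · obtain ⟨p, hp, c, hc, h2⟩ := unG_testBit h1
    exact Or.inr (Or.inr (Or.inr ⟨p, hp, c, hc, (cyl_testBit hh).1 h2⟩))

theorem XY_spec : ∀ c ∈ XY, (∃ a : Fin 6, c.1.testBit a.val = true) ∧
    (∃ b : Fin 6, c.2.testBit b.val = true) ∧
    (∀ a : Fin 6, ¬ (c.1.testBit a.val = true ∧ c.2.testBit a.val = true)) ∧
    5 ≤ (Finset.univ.filter fun a : Fin 6 => c.1.testBit a.val = true ∨
      c.2.testBit a.val = true).card := by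
  decide +kernel

theorem cutA_spec {M : Fin 6 → Fin 6 → Prop} (hs : ∀ a b, M a b → M b a) {X Y : ℕ}
    (hc : ∀ j < 15, cutA X Y j (wd M j) = true) {a b : Fin 6} (hab : a ≠ b)
    (ha : X.testBit a.val = true) (hb : Y.testBit b.val = true) : M a b := by
  obtain ⟨j, hj, h1, h2⟩ := wd_eq hs hab
  rw [← h2]
  have h3 := hc j hj
  unfold cutA at h3
  have key : ((X.testBit (pp.getD j (0, 0)).1 && Y.testBit (pp.getD j (0, 0)).2) ||
    (X.testBit (pp.getD j (0, 0)).2 && Y.testBit (pp.getD j (0, 0)).1)) = true := by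
    rcases h1 with h1 | h1
    · rw [h1]; simp only [ha, hb]; rfl
    · rw [h1]; simp only [ha, hb]; simp
  rw [key, Bool.not_true, Bool.or_false] at h3
  exact Nat.eq_of_beq_eq_true h3

theorem isoA_spec {M : Fin 6 → Fin 6 → Prop} (hs : ∀ a b, M a b → M b a) (hi : ∀ a, ¬ M a a)
    {a b : Fin 6} (hc : ∀ j < 15, isoA a.val j (wd M j) = true) (hM : M a b) : False := by
  have hab : a ≠ b := by
    rintro rfl
    exact hi _ hM
  obtain ⟨j, hj, h1, h2⟩ := wd_eq hs hab
  have h3 := hc j hj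
  unfold isoA at h3
  rw [h2.2 hM] at h3
  rcases h1 with h1 | h1
  · rw [h1] at h3; simp at h3
  · rw [h1] at h3; simp at h3

theorem eA_spec {M : Fin 6 → Fin 6 → Prop} (hs : ∀ a b, M a b → M b a) {L : List ℕ} {c : ℕ}
    (hc : ∀ j < 15, eA L c j (wd M j) = true) {a b : Fin 6} (hab : a ≠ b) :
    M a b ↔ 2 ^ dg c a.val ||| 2 ^ dg c b.val ∈ L := by
  obtain ⟨j, hj, h1, h2⟩ := wd_eq hs hab
  have h3 := hc j hj
  unfold eA at h3
  have hpp : 2 ^ dg c (pp.getD j (0, 0)).1 ||| 2 ^ dg c (pp.getD j (0, 0)).2 =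
      2 ^ dg c a.val ||| 2 ^ dg c b.val := by
    rcases h1 with h1 | h1
    · rw [h1]
    · rw [h1, Nat.lor_comm]
  rw [hpp] at h3
  rw [← h2]
  constructor
  · intro h4
    rw [h4] at h3
    cases hm : memb L (2 ^ dg c a.val ||| 2 ^ dg c b.val) with
    | true => exact mem_of_memb hm
    | false => rw [hm] at h3; exact absurd h3 (by decide)
  · intro h4
    rw [memb_of_mem h4] at h3
    exact Nat.eq_of_beq_eq_true h3

/-- **Classification.** -/
theorem classify {M : Fin 6 → Fin 6 → Prop} (hs : ∀ a b, M a b → M b a) (hi : ∀ a, ¬ M a a)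
    (hact : ∀ a, ∃ b, M a b) (hdeg : ∀ v u, v ≠ u → ¬ ∀ w, w ≠ v → w ≠ u → M v w)
    (hcut : ∀ X Y : Set (Fin 6), X.Nonempty → Y.Nonempty → Disjoint X Y → 5 ≤ (X ∪ Y).ncard →
      ¬ ∀ x ∈ X, ∀ y ∈ Y, M x y) :
    ∃ L ∈ LC.map Prod.fst, ∃ f : Fin 6 → ℕ, Function.Injective f ∧ (∀ a, f a < 6) ∧
      ∀ a b, a ≠ b → (M a b ↔ 2 ^ f a ||| 2 ^ f b ∈ L) := by
  rcases cases (h := wd M) (fun j _ => wd_lt M j) with h | h | h | h
  · exfalso
    obtain ⟨c, hc, h1⟩ := h
    obtain ⟨v, u, hvu, rfl⟩ := vu_spec c hc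
    exact hdeg v u hvu fun w h2 h3 => badA_spec hs h1 h2 h3
  · exfalso
    obtain ⟨c, hc, h1⟩ := h
    obtain ⟨⟨a, ha⟩, ⟨b, hb⟩, hd, h5⟩ := XY_spec c hc
    refine hcut {a | c.1.testBit a.val = true} {b | c.2.testBit b.val = true} ⟨a, ha⟩ ⟨b, hb⟩
      (Set.disjoint_left.2 fun x hx hy => hd x ⟨hx, hy⟩) ?_ ?_
    · have e : ({a : Fin 6 | c.1.testBit a.val = true} ∪ {b : Fin 6 | c.2.testBit b.val = true}) =
          ((Finset.univ.filter fun a : Fin 6 => c.1.testBit a.val = true ∨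
            c.2.testBit a.val = true : Finset (Fin 6)) : Set (Fin 6)) := by
        ext x
        simp
      rw [e, Set.ncard_coe_finset]
      exact h5
    · intro x hx y hy
      refine cutA_spec hs h1 ?_ hx hy
      rintro rfl
      exact hd _ ⟨hx, hy⟩
  · exfalso
    obtain ⟨a, ha, h1⟩ := h
    have ha6 : ∃ a' : Fin 6, a'.val = a := by
      have : a < 6 := by
        simp only [List.mem_cons, List.not_mem_nil, or_false] at ha
        omega
      exact ⟨⟨a, this⟩, rfl⟩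
    obtain ⟨a', rfl⟩ := ha6
    obtain ⟨b, hb⟩ := hact a'
    exact isoA_spec hs hi h1 hb
  · obtain ⟨p, hp, c, hc, h1⟩ := h
    have hinj : chkInj p.2 = true := List.all_eq_true.1 inj_LC p hp
    refine ⟨p.1, List.mem_map.2 ⟨p, hp, rfl⟩, fun a => dg c a.val, inj_of hinj hc, ?_,
      fun a b hab => eA_spec hs h1 hab⟩
    intro a
    unfold chkInj at hinj
    rw [List.all_eq_true] at hinj
    have h2 := hinj c hc
    rw [List.all_eq_true] at h2
    have hall : ∀ x : Fin 6, x.val ∈ [0, 1, 2, 3, 4, 5] := by decide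
    have h3 := h2 a.val (hall a)
    rw [Bool.and_eq_true] at h3
    exact Nat.le_of_ble_eq_true h3.1

end Vale.Agent.P032.Words6.H122
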